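import Vale.Agent.P210.R2.H401.CSpec

open Set Metric
open Vale.Agent.P210.R2.H53 (HCge)

noncomputable section

namespace Vale.Agent.P210.R2.H475

open Vale.Agent.P210.R2.H401

/-- volume of small balls in terms of a big one -/
theorem lowV {n : ℕ} {S : Sp} (h : Ax n S) {y z : S.X} {r t ρ₂ L : ℝ} (hr : 0 < r)
    (hK : S.K * r ^ 2 ≤ 1) (hzy : dist z y ≤ r) (ht : 0 < t) (htρ : t ≤ ρ₂) (hρr : ρ₂ ≤ r)
    (hL : 0 < L) (hV : L * (ρ₂ / r) ^ n * S.V z r < S.V z ρ₂) :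
    L * t ^ n * S.V y r ≤ Real.exp 5 * 2 ^ n * r ^ n * S.V z t := by
  have hρ : 0 < ρ₂ := ht.trans_le htρ
  have hK0 := h.Kpos
  have h1 := h.bg z t ρ₂ ht htρ
  have h2 := h.bg z r (2 * r) hr (by linarith)
  have h3 := h.sub y z r (2 * r) (by rw [dist_comm]; linarith)
  have e1 : Real.exp (S.K * ρ₂ ^ 2) ≤ Real.exp 1 := by
    apply Real.exp_le_exp.2
    refine le_trans ?_ hK
    gcongr
  have e2 : Real.exp (S.K * (2 * r) ^ 2) ≤ Real.exp 4 := by
    apply Real.exp_le_exp.2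
    nlinarith
  have hVt := h.pos z t ht
  have hVr := h.pos z r hr
  have h2' : S.V y r ≤ 2 ^ n * Real.exp 4 * S.V z r := by
    refine h3.trans (h2.trans ?_)
    have : 2 * r / r = 2 := by field_simp
    rw [this]
    gcongr
  have h1' : S.V z ρ₂ ≤ (ρ₂ / t) ^ n * Real.exp 1 * S.V z t := by
    refine h1.trans ?_
    gcongr
  have h4 : L * (ρ₂ / r) ^ n * S.V z r ≤ (ρ₂ / t) ^ n * Real.exp 1 * S.V z t := hV.le.trans h1'
  have h5 : L * t ^ n * S.V z r ≤ Real.exp 1 * r ^ n * S.V z t := by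
    have hρn : 0 < ρ₂ ^ n := pow_pos hρ n
    have htn : 0 < t ^ n := pow_pos ht n
    have hrn : 0 < r ^ n := pow_pos hr n
    rw [div_pow, div_pow] at h4
    have h6 : L * t ^ n * S.V z r = (L * (ρ₂ ^ n / r ^ n) * S.V z r) * (t ^ n * r ^ n / ρ₂ ^ n) := by
      field_simp
    have h7 : Real.exp 1 * r ^ n * S.V z t =
        (ρ₂ ^ n / t ^ n * Real.exp 1 * S.V z t) * (t ^ n * r ^ n / ρ₂ ^ n) := by
      field_simp
    rw [h6, h7]
    gcongr
  calc L * t ^ n * S.V y r ≤ L * t ^ n * (2 ^ n * Real.exp 4 * S.V z r) := by gcongr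
    _ = 2 ^ n * Real.exp 4 * (L * t ^ n * S.V z r) := by ring
    _ ≤ 2 ^ n * Real.exp 4 * (Real.exp 1 * r ^ n * S.V z t) := by gcongr
    _ = (Real.exp 4 * Real.exp 1) * 2 ^ n * r ^ n * S.V z t := by ring
    _ = Real.exp 5 * 2 ^ n * r ^ n * S.V z t := by
      rw [← Real.exp_add]; norm_num

/-- separated sets in balls are finite -/
theorem finSep (hc : Stmt.COVER) {n : ℕ} {S : Sp} (h : Ax n S) {y : S.X} {r s : ℝ} (hs : 0 < s)
    (hsr : s ≤ r) (hK : S.K * r ^ 2 ≤ 1) (u : Set S.X) (hu : ∀ z ∈ u, dist z y ≤ r)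
    (hsep : ∀ z ∈ u, ∀ z' ∈ u, z ≠ z' → s ≤ dist z z') : u.Finite := by
  obtain ⟨N, -, hN⟩ := hc n (r / s)
  have h1 := (hN S h y s r hs hsr (by field_simp; rfl) hK).1
  by_contra hinf
  obtain ⟨Z, hZu, hZc⟩ := Set.Infinite.exists_subset_card_eq hinf (N + 1)
  have := h1 Z (fun z hz => hu z (hZu hz))
    (fun z hz z' hz' hne => hsep z (hZu hz) z' (hZu hz') hne)
  omega

theorem bad : Stmt.COVER → Stmt.VIT → Stmt.BAD := by
  classical
  intro hc hv n C hn hI κ hκ hκ1 η hη ε hε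
  obtain ⟨c, hc0, hm⟩ := hI.mass
  set A : ℝ := 48 ^ (n - 1) * (Real.exp 5 * 2 ^ n) * c / (η * κ) with hA
  have hA0 : 0 < A := by positivity
  refine ⟨2 * A / ε, by positivity, ?_⟩
  intro S hS x y r ρ ρ₁ ρ₂ P hρ hρ1 hρ12 hρr hK hxy hP hH
  set L : ℝ := 2 * A / ε with hL
  have hL0 : 0 < L := by positivity
  have hax := hI.ax S hS
  have hρ1' : 0 < ρ₁ := hρ.trans_le hρ1
  have hρ2' : 0 < ρ₂ := hρ1'.trans_le hρ12
  have hr : 0 < r := by
    by_contra hneg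
    push Not at hneg
    nlinarith
  have hρ2r : 16 * ρ₂ ≤ r := by nlinarith
  have hex : ∀ z : S.X, ∃ t : ℝ, z ∈ P → ρ₁ ≤ t ∧ t ≤ ρ₂ ∧
      ¬ S.LM x z (16 * t) (η * S.V z t / t) := by
    intro z
    by_cases hz : z ∈ P
    · obtain ⟨-, -, -, t, h⟩ := hP z hz
      exact ⟨t, fun _ => h⟩
    · exact ⟨0, fun h => absurd h hz⟩
  choose t ht using hex
  have ht0 : ∀ z ∈ P, 0 < t z := fun z hz => hρ1'.trans_le (ht z hz).1
  obtain ⟨u, huP, husep, hucov⟩ := hv S.X P t ρ₂ (fun z hz => ⟨ht0 z hz, (ht z hz).2.1⟩)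
  have hfin : u.Finite := by
    apply finSep hc hax (y := y) (r := r) (s := ρ₁) hρ1' (by linarith) hK u
      (fun z hz => (hP z (huP hz)).1)
    intro z hz z' hz' hne
    have h1 := husep z hz z' hz' hne
    have h2 := (ht z (huP hz)).1
    have h3 := ht0 z' (huP hz')
    linarith
  set Z : Finset S.X := hfin.toFinset with hZ
  have hZu : ∀ z, z ∈ Z ↔ z ∈ u := fun z => by rw [hZ, Set.Finite.mem_toFinset]
  have hsum := hm S hS x y r κ hr hκ hκ1 hK (by linarith) Z (fun z => 16 * t z)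
    (fun z => η * S.V z (t z) / t z) ?_ ?_
  rotate_left
  · intro z hz
    have hz' := huP ((hZu z).1 hz)
    have h0 := ht0 z hz'
    obtain ⟨h1, h2, h3⟩ := ht z hz'
    obtain ⟨h4, h5, -, -⟩ := hP z hz'
    refine ⟨by linarith, by linarith, h4, by linarith, h3⟩
  · intro z hz z' hz' hne
    exact husep z ((hZu z).1 hz) z' ((hZu z').1 hz') hne
  have hVy := hax.pos y r hr
  -- pointwise bound
  have hpt : ∀ z ∈ Z, (t z) ^ (n - 1) ≤
      (Real.exp 5 * 2 ^ n * r ^ n / (L * η * S.V y r)) * (η * S.V z (t z) / t z) := by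
    intro z hz
    have hz' := huP ((hZu z).1 hz)
    have h0 := ht0 z hz'
    obtain ⟨h1, h2, h3⟩ := ht z hz'
    obtain ⟨h4, h5, h6, -⟩ := hP z hz'
    have h7 := lowV hax hr hK h4 h0 h2 (by linarith) hL0 h6
    have h8 : (t z) ^ (n - 1) = (L * (t z) ^ n * S.V y r) * (1 / (L * S.V y r * t z)) := by
      obtain ⟨m, rfl⟩ : ∃ m, n = m + 1 := ⟨n - 1, by omega⟩
      simp only [Nat.add_sub_cancel, pow_succ]
      field_simp
    have h9 : (Real.exp 5 * 2 ^ n * r ^ n / (L * η * S.V y r)) * (η * S.V z (t z) / t z) =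
        (Real.exp 5 * 2 ^ n * r ^ n * S.V z (t z)) * (1 / (L * S.V y r * t z)) := by
      field_simp
    rw [h8, h9]
    gcongr
  have hsum2 : ∑ z ∈ Z, (t z) ^ (n - 1) ≤
      (Real.exp 5 * 2 ^ n * r ^ n / (L * η * S.V y r)) * (c * S.V y r / (κ * r)) := by
    calc ∑ z ∈ Z, (t z) ^ (n - 1) ≤ ∑ z ∈ Z,
        (Real.exp 5 * 2 ^ n * r ^ n / (L * η * S.V y r)) * (η * S.V z (t z) / t z) :=
          Finset.sum_le_sum hpt
      _ = (Real.exp 5 * 2 ^ n * r ^ n / (L * η * S.V y r)) *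
          ∑ z ∈ Z, (η * S.V z (t z) / t z) := by rw [Finset.mul_sum]
      _ ≤ _ := by gcongr
  have hval : 48 ^ (n - 1) * ((Real.exp 5 * 2 ^ n * r ^ n / (L * η * S.V y r)) *
      (c * S.V y r / (κ * r))) = ε / 2 * r ^ (n - 1) := by
    obtain ⟨m, rfl⟩ : ∃ m, n = m + 1 := ⟨n - 1, by omega⟩
    simp only [Nat.add_sub_cancel, pow_succ] at hA ⊢
    rw [hL, hA]
    field_simp
  -- the cover
  have hcov := hH (Z.image fun z => (z, 48 * t z)) ?_ ?_
  · have hle : ∑ c ∈ Z.image (fun z => (z, 48 * t z)), c.2 ^ (n - 1) ≤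
        48 ^ (n - 1) * ∑ z ∈ Z, (t z) ^ (n - 1) := by
      rw [Finset.sum_image (by intro a _ b _ hab; simp only [Prod.mk.injEq] at hab; exact hab.1),
        Finset.mul_sum]
      apply le_of_eq
      apply Finset.sum_congr rfl
      intro z _
      rw [mul_pow]
    have h1 : 48 ^ (n - 1) * ∑ z ∈ Z, (t z) ^ (n - 1) ≤ ε / 2 * r ^ (n - 1) := by
      rw [← hval]
      gcongr
    have h2 : 0 < ε * r ^ (n - 1) := by positivity
    linarith
  · intro c hc'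
    obtain ⟨z, hz, rfl⟩ := Finset.mem_image.1 hc'
    have hz' := huP ((hZu z).1 hz)
    have h0 := ht0 z hz'
    have h1 := (ht z hz').1
    show ρ ≤ 48 * t z
    linarith
  · intro a ha
    obtain ⟨b, hb, hab⟩ := hucov a ha
    simp only [Set.mem_iUnion]
    exact ⟨(b, 48 * t b), Finset.mem_image.2 ⟨b, (hZu b).2 hb, rfl⟩, hab⟩

end Vale.Agent.P210.R2.H475
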